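import Crest.Agent.S0169Lib.CascadeIndep

/-!
Path products of independent multipliers (S0169), part 2: first and second moments of the path
products and of their sibling increments.
-/

set_option autoImplicit false
set_option linter.unusedSectionVars false

namespace Crest.Agent.S0169Lib

open MeasureTheory ProbabilityTheory
open Crest.AnalysisR Crest.AnalysisR.TreeProduct Crest.Agent.AsyLib

section Law

variable {Ω : Type} [mΩ : MeasurableSpace Ω] {μ : Measure Ω} {ν : Measure ℝ} {X : Ω → ℝ}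

theorem law_integrable (hm : Measurable X) (hlaw : Measure.map X μ = ν) {g : ℝ → ℝ}
    (hg : Measurable g) (hgi : Integrable g ν) : Integrable (fun ω => g (X ω)) μ := by
  rw [← hlaw] at hgi
  exact (integrable_map_measure hg.aestronglyMeasurable hm.aemeasurable).mp hgi

theorem law_integral (hm : Measurable X) (hlaw : Measure.map X μ = ν) {g : ℝ → ℝ}
    (hg : Measurable g) : ∫ ω, g (X ω) ∂μ = ∫ x, g x ∂ν := by
  rw [← hlaw]
  exact (integral_map hm.aemeasurable hg.aestronglyMeasurable).symm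

theorem law_ae_pos [IsProbabilityMeasure ν] (hm : Measurable X) (hlaw : Measure.map X μ = ν)
    (hpos : ν (Set.Ioi 0) = 1) : ∀ᵐ ω ∂μ, 0 < X ω := by
  have h1 : ∀ᵐ x ∂ν, x ∈ Set.Ioi (0 : ℝ) :=
    (mem_ae_iff_prob_eq_one measurableSet_Ioi).mpr hpos
  rw [← hlaw] at h1
  exact (ae_map_iff hm.aemeasurable measurableSet_Ioi).mp h1

end Law

section Nu

variable {ν : Measure ℝ} [IsProbabilityMeasure ν]

theorem integrable_id_of_mean (hmean : ∫ x, x ∂ν = 1) : Integrable (fun x : ℝ => x) ν := by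
  by_contra h
  rw [integral_undef h] at hmean
  exact zero_ne_one hmean

theorem integrable_abs_sub_one (hmean : ∫ x, x ∂ν = 1) : Integrable (fun x : ℝ => |x - 1|) ν :=
  ((integrable_id_of_mean hmean).sub (integrable_const 1)).abs

theorem integrable_sub_one_sq (hmean : ∫ x, x ∂ν = 1) (hm2 : Integrable (fun x : ℝ => x ^ 2) ν) :
    Integrable (fun x : ℝ => (x - 1) ^ 2) ν := by
  have h : (fun x : ℝ => (x - 1) ^ 2) = fun x => x ^ 2 - 2 * x + 1 := by
    funext x; ring
  rw [h]
  exact (hm2.sub ((integrable_id_of_mean hmean).const_mul 2)).add (integrable_const 1)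

/-- If `ν` is not a point mass then `∫ |x - 1| dν > 0`. -/
theorem kappa_pos (hnc : ∀ c : ℝ, ν ≠ Measure.dirac c) (hmean : ∫ x, x ∂ν = 1) :
    0 < ∫ x, |x - 1| ∂ν := by
  have hint := integrable_abs_sub_one (ν := ν) hmean
  have h0 : 0 ≤ ∫ x, |x - 1| ∂ν := integral_nonneg fun x => abs_nonneg _
  rcases h0.lt_or_eq with h | h
  · exact h
  · exfalso
    have h1 : (fun x : ℝ => |x - 1|) =ᵐ[ν] 0 :=
      (integral_eq_zero_iff_of_nonneg (fun x => abs_nonneg _) hint).mp h.symm
    have h2 : (fun x : ℝ => x) =ᵐ[ν] fun _ => (1 : ℝ) := by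
      filter_upwards [h1] with x hx
      have : |x - 1| = 0 := hx
      rw [abs_eq_zero] at this
      linarith
    apply hnc 1
    have h3 : Measure.map (fun x : ℝ => x) ν = Measure.map (fun _ : ℝ => (1 : ℝ)) ν :=
      Measure.map_congr h2
    rw [Measure.map_const] at h3
    have h4 : Measure.map (fun x : ℝ => x) ν = ν := Measure.map_id
    rw [h4] at h3
    simpa using h3

end Nu

section Path

variable {Ω : Type} [mΩ : MeasurableSpace Ω] {μ : Measure Ω} [IsProbabilityMeasure μ]
  {ν : Measure ℝ} [IsProbabilityMeasure ν] {W : List ℕ → Ω → ℝ}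

theorem W_integrable (hW : IsRealization ν μ W) (hmean : ∫ x, x ∂ν = 1) {u : List ℕ}
    (hu : u ≠ []) : Integrable (W u) μ :=
  law_integrable (hW.1 u) (hW.2.2 u hu) measurable_id (integrable_id_of_mean hmean)

theorem W_integral (hW : IsRealization ν μ W) (hmean : ∫ x, x ∂ν = 1) {u : List ℕ}
    (hu : u ≠ []) : ∫ ω, W u ω ∂μ = 1 := by
  rw [law_integral (hW.1 u) (hW.2.2 u hu) (g := fun x => x) measurable_id]
  exact hmean

/-- Integrability, mean one, almost sure positivity and square integrability of the path products. -/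
theorem pathProduct_facts (hW : IsRealization ν μ W) (hpos : ν (Set.Ioi 0) = 1)
    (hmean : ∫ x, x ∂ν = 1) (hm2 : Integrable (fun x : ℝ => x ^ 2) ν) (v : List ℕ) :
    Integrable (pathProduct W v) μ ∧ ∫ ω, pathProduct W v ω ∂μ = 1 ∧
      (∀ᵐ ω ∂μ, 0 < pathProduct W v ω) ∧ Integrable (fun ω => pathProduct W v ω ^ 2) μ := by
  induction v with
  | nil =>
    refine ⟨integrable_const 1, ?_, Filter.Eventually.of_forall fun _ => one_pos, ?_⟩
    · simp [pathProduct]
    · simp [pathProduct]
  | cons a v ih =>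
    obtain ⟨hi, h1, hp, hsq⟩ := ih
    have hne : a :: v ≠ [] := List.cons_ne_nil a v
    have hind : IndepFun (pathProduct W v) (W (a :: v)) μ :=
      indepFun_suffix hW.1 hW.2.1 (not_cons_suffix a v) (measurable_pathProduct_sig v)
    have hWi := W_integrable hW hmean hne
    refine ⟨?_, ?_, ?_, ?_⟩
    · exact hind.integrable_mul hi hWi
    · show ∫ ω, pathProduct W v ω * W (a :: v) ω ∂μ = 1
      rw [hind.integral_fun_mul_eq_mul_integral hi.aestronglyMeasurable hWi.aestronglyMeasurable,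
        h1, W_integral hW hmean hne]
      norm_num
    · filter_upwards [hp, law_ae_pos (hW.1 _) (hW.2.2 _ hne) hpos] with ω h1 h2
      exact mul_pos h1 h2
    · have hind2 : IndepFun ((fun x : ℝ => x ^ 2) ∘ pathProduct W v)
          ((fun x : ℝ => x ^ 2) ∘ W (a :: v)) μ :=
        hind.comp (measurable_id.pow_const 2) (measurable_id.pow_const 2)
      have hW2 : Integrable ((fun x : ℝ => x ^ 2) ∘ W (a :: v)) μ :=
        law_integrable (hW.1 _) (hW.2.2 _ hne) (measurable_id.pow_const 2) hm2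
      have h3 := hind2.integrable_mul hsq hW2
      refine h3.congr (Filter.Eventually.of_forall fun ω => ?_)
      simp [pathProduct, mul_pow]

/-- The sibling increment `Π_v (W (n :: v) - 1) = Π_{n :: v} - Π_v`. -/
def incr (W : List ℕ → Ω → ℝ) (v : List ℕ) (n : ℕ) : Ω → ℝ :=
  fun ω => pathProduct W v ω * (W (n :: v) ω - 1)

theorem incr_eq (v : List ℕ) (n : ℕ) :
    incr W v n = fun ω => pathProduct W (n :: v) ω - pathProduct W v ω := by
  funext ω
  simp only [incr, pathProduct]
  ring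

theorem measurable_incr_sig (v : List ℕ) (n : ℕ) :
    Measurable[sig W {x | x <:+ n :: v}] (incr W v n) := by
  have h1 : Measurable[sig W {x | x <:+ n :: v}] (pathProduct W v) :=
    (measurable_pathProduct_sig v).mono
      (sig_mono fun u hu => hu.trans (List.suffix_cons n v)) le_rfl
  have h2 : Measurable[sig W {x | x <:+ n :: v}] (W (n :: v)) :=
    measurable_W_sig (List.suffix_refl _)
  exact h1.mul (h2.sub_const 1)

theorem measurable_incr (hW : ∀ v, Measurable (W v)) (v : List ℕ) (n : ℕ) :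
    Measurable (incr W v n) :=
  (measurable_incr_sig v n).mono (sig_le hW _) le_rfl

/-- `E |Π_v (W (n :: v) - 1)| = ∫ |x - 1| dν`. -/
theorem integral_abs_incr (hW : IsRealization ν μ W) (hpos : ν (Set.Ioi 0) = 1)
    (hmean : ∫ x, x ∂ν = 1) (hm2 : Integrable (fun x : ℝ => x ^ 2) ν) (v : List ℕ) (n : ℕ) :
    ∫ ω, |incr W v n ω| ∂μ = ∫ x, |x - 1| ∂ν := by
  obtain ⟨hi, h1, hp, -⟩ := pathProduct_facts hW hpos hmean hm2 v
  have hne : n :: v ≠ [] := List.cons_ne_nil n v
  have hind : IndepFun (pathProduct W v) (W (n :: v)) μ :=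
    indepFun_suffix hW.1 hW.2.1 (not_cons_suffix n v) (measurable_pathProduct_sig v)
  have hma : Measurable fun x : ℝ => |x| := measurable_id.abs
  have hmb : Measurable fun x : ℝ => |x - 1| := (measurable_id.sub_const 1).abs
  have hind2 : IndepFun ((fun x : ℝ => |x|) ∘ pathProduct W v)
      ((fun x : ℝ => |x - 1|) ∘ W (n :: v)) μ := hind.comp hma hmb
  have e : ∀ ω, |incr W v n ω| = ((fun x : ℝ => |x|) ∘ pathProduct W v) ω *
      ((fun x : ℝ => |x - 1|) ∘ W (n :: v)) ω := by
    intro ω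
    simp [incr, abs_mul]
  simp_rw [e]
  rw [hind2.integral_fun_mul_eq_mul_integral
    (hma.comp (measurable_pathProduct hW.1 v)).aestronglyMeasurable
    (hmb.comp (hW.1 _)).aestronglyMeasurable]
  have e1 : ∫ ω, ((fun x : ℝ => |x|) ∘ pathProduct W v) ω ∂μ = 1 := by
    rw [← h1]
    exact integral_congr_ae (hp.mono fun ω h => abs_of_pos h)
  have e2 : ∫ ω, ((fun x : ℝ => |x - 1|) ∘ W (n :: v)) ω ∂μ = ∫ x, |x - 1| ∂ν :=
    law_integral (hW.1 _) (hW.2.2 _ hne) hmb
  rw [e1, e2, one_mul]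

/-- Second moments of the sibling increments. -/
theorem incr_sq_facts (hW : IsRealization ν μ W) (hpos : ν (Set.Ioi 0) = 1)
    (hmean : ∫ x, x ∂ν = 1) (hm2 : Integrable (fun x : ℝ => x ^ 2) ν) (v : List ℕ) (n : ℕ) :
    Integrable (fun ω => incr W v n ω ^ 2) μ ∧
      ∫ ω, incr W v n ω ^ 2 ∂μ = (∫ ω, pathProduct W v ω ^ 2 ∂μ) * ∫ x, (x - 1) ^ 2 ∂ν := by
  obtain ⟨hi, h1, hp, hsq⟩ := pathProduct_facts hW hpos hmean hm2 v
  have hne : n :: v ≠ [] := List.cons_ne_nil n v
  have hind : IndepFun (pathProduct W v) (W (n :: v)) μ :=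
    indepFun_suffix hW.1 hW.2.1 (not_cons_suffix n v) (measurable_pathProduct_sig v)
  have hma : Measurable fun x : ℝ => x ^ 2 := measurable_id.pow_const 2
  have hmb : Measurable fun x : ℝ => (x - 1) ^ 2 := (measurable_id.sub_const 1).pow_const 2
  have hind2 : IndepFun ((fun x : ℝ => x ^ 2) ∘ pathProduct W v)
      ((fun x : ℝ => (x - 1) ^ 2) ∘ W (n :: v)) μ := hind.comp hma hmb
  have hWi : Integrable ((fun x : ℝ => (x - 1) ^ 2) ∘ W (n :: v)) μ :=
    law_integrable (hW.1 _) (hW.2.2 _ hne) hmb (integrable_sub_one_sq hmean hm2)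
  have e : ∀ ω, incr W v n ω ^ 2 = ((fun x : ℝ => x ^ 2) ∘ pathProduct W v) ω *
      ((fun x : ℝ => (x - 1) ^ 2) ∘ W (n :: v)) ω := by
    intro ω
    simp [incr, mul_pow]
  refine ⟨?_, ?_⟩
  · have h3 := hind2.integrable_mul hsq hWi
    exact h3.congr (Filter.Eventually.of_forall fun ω => (e ω).symm)
  · simp_rw [e]
    rw [hind2.integral_fun_mul_eq_mul_integral
      (hma.comp (measurable_pathProduct hW.1 v)).aestronglyMeasurable
      (hmb.comp (hW.1 _)).aestronglyMeasurable]
    have e2 : ∫ ω, ((fun x : ℝ => (x - 1) ^ 2) ∘ W (n :: v)) ω ∂μ = ∫ x, (x - 1) ^ 2 ∂ν :=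
      law_integral (hW.1 _) (hW.2.2 _ hne) hmb
    rw [e2]
    rfl

/-- Distinct sibling increments are orthogonal in `L²`. -/
theorem integral_incr_mul_incr (hW : IsRealization ν μ W)
    (hmean : ∫ x, x ∂ν = 1) (v : List ℕ) {n m : ℕ} (hnm : n ≠ m) :
    ∫ ω, incr W v n ω * incr W v m ω ∂μ = 0 := by
  have hne : m :: v ≠ [] := List.cons_ne_nil m v
  have h1 : Measurable[sig W {x | x <:+ n :: v}] (pathProduct W v) :=
    (measurable_pathProduct_sig v).mono
      (sig_mono fun u hu => hu.trans (List.suffix_cons n v)) le_rfl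
  have hX : Measurable[sig W {x | x <:+ n :: v}] (fun ω => pathProduct W v ω * incr W v n ω) :=
    h1.mul (measurable_incr_sig v n)
  have hXY : IndepFun (fun ω => pathProduct W v ω * incr W v n ω) (W (m :: v)) μ :=
    indepFun_suffix hW.1 hW.2.1 (not_cons_suffix_cons hnm v) hX
  have hmb : Measurable fun x : ℝ => x - 1 := measurable_id.sub_const 1
  have hXY' : IndepFun (fun ω => pathProduct W v ω * incr W v n ω)
      ((fun x : ℝ => x - 1) ∘ W (m :: v)) μ := hXY.comp measurable_id hmb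
  have e : ∀ ω, incr W v n ω * incr W v m ω = (fun ω => pathProduct W v ω * incr W v n ω) ω *
      ((fun x : ℝ => x - 1) ∘ W (m :: v)) ω := by
    intro ω
    simp only [incr, Function.comp]
    ring
  simp_rw [e]
  rw [hXY'.integral_fun_mul_eq_mul_integral
    ((measurable_pathProduct hW.1 v).mul (measurable_incr hW.1 v n)).aestronglyMeasurable
    (hmb.comp (hW.1 _)).aestronglyMeasurable]
  have e2 : ∫ ω, ((fun x : ℝ => x - 1) ∘ W (m :: v)) ω ∂μ = 0 := by
    have := law_integral (hW.1 _) (hW.2.2 _ hne) hmb (μ := μ)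
    simp only [Function.comp]
    rw [this, integral_sub (integrable_id_of_mean hmean) (integrable_const 1), hmean]
    simp
  rw [e2, mul_zero]

end Path

end Crest.Agent.S0169Lib
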