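import Crest.Agent.AsyLib.Basic
import Crest.Prelude.Def_TreeProducts
import Crest.Agent.S0169Lib.CascadeMoments

/-!
Path products of independent multipliers (S0169): the probabilistic facts, packaged as one
existence statement about elements of the product span.
-/

set_option autoImplicit false
set_option linter.unusedSectionVars false

namespace Crest.Agent.S0169Lib

open MeasureTheory ProbabilityTheory
open Crest.AnalysisR Crest.AnalysisR.TreeProduct Crest.Agent.AsyLib

section Aux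

variable {Ω : Type} [mΩ : MeasurableSpace Ω] {μ : Measure Ω} [IsProbabilityMeasure μ]

/-- Cauchy–Schwarz on a probability space: `E|f| ≤ √(E f²)`. -/
theorem integral_abs_le_sqrt_integral_sq {f : Ω → ℝ} (hf : AEStronglyMeasurable f μ)
    (hsq : Integrable (fun ω => f ω ^ 2) μ) :
    ∫ ω, |f ω| ∂μ ≤ Real.sqrt (∫ ω, f ω ^ 2 ∂μ) := by
  have hL2 : MemLp f 2 μ := (memLp_two_iff_integrable_sq hf).mpr hsq
  have hint : Integrable f μ := hL2.integrable one_le_two
  have habs : Integrable (fun ω => |f ω|) μ := hint.abs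
  obtain ⟨m, hm⟩ : ∃ m : ℝ, m = ∫ ω, |f ω| ∂μ := ⟨_, rfl⟩
  have h0 : 0 ≤ ∫ ω, (|f ω| - m) ^ 2 ∂μ := integral_nonneg fun ω => sq_nonneg _
  have e : ∀ ω, (|f ω| - m) ^ 2 = f ω ^ 2 - 2 * m * |f ω| + m ^ 2 := by
    intro ω
    have : |f ω| ^ 2 = f ω ^ 2 := sq_abs _
    nlinarith
  simp_rw [e] at h0
  have hi2 : Integrable (fun ω => 2 * m * |f ω|) μ := habs.const_mul _
  have hi1 : Integrable (fun ω => f ω ^ 2 - 2 * m * |f ω|) μ := hsq.sub hi2
  rw [integral_add hi1 (integrable_const _), integral_sub hsq hi2, integral_const_mul, ← hm] at h0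
  simp only [integral_const, probReal_univ, smul_eq_mul, one_mul] at h0
  have h1 : m ^ 2 ≤ ∫ ω, f ω ^ 2 ∂μ := by nlinarith
  rw [← hm]
  exact (le_abs_self m).trans (Real.abs_le_sqrt h1)

theorem norm_toLp_one {f : Ω → ℝ} (hf : MemLp f 1 μ) : ‖hf.toLp f‖ = ∫ ω, |f ω| ∂μ := by
  rw [L1.norm_eq_integral_norm]
  exact integral_congr_ae ((MemLp.coeFn_toLp hf).mono fun ω h => by
    simp only [h, Real.norm_eq_abs])

theorem coeFn_sum_smul_ae (A : Finset ℕ) (c : ℕ → ℝ) (x : ℕ → Lp ℝ 1 μ) :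
    ⇑(∑ n ∈ A, c n • x n) =ᵐ[μ] fun ω => ∑ n ∈ A, c n * x n ω := by
  classical
  induction A using Finset.induction_on with
  | empty =>
    simp only [Finset.sum_empty]
    exact Lp.coeFn_zero ℝ 1 μ
  | insert a A ha ih =>
    rw [Finset.sum_insert ha]
    filter_upwards [Lp.coeFn_add (c a • x a) (∑ n ∈ A, c n • x n), Lp.coeFn_smul (c a) (x a), ih]
      with ω h1 h2 h3
    rw [h1, Pi.add_apply, h2, h3, Finset.sum_insert ha, Pi.smul_apply, smul_eq_mul]

end Aux

section Main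

variable {Ω : Type} [mΩ : MeasurableSpace Ω] {μ : Measure Ω} [IsProbabilityMeasure μ]
  {ν : Measure ℝ} [IsProbabilityMeasure ν] {W : List ℕ → Ω → ℝ}

/-- The `L²` norm of a finite combination of sibling increments. -/
theorem integral_sq_sum_incr (hW : IsRealization ν μ W) (hpos : ν (Set.Ioi 0) = 1)
    (hmean : ∫ x, x ∂ν = 1) (hm2 : Integrable (fun x : ℝ => x ^ 2) ν) (v : List ℕ)
    (A : Finset ℕ) (c : ℕ → ℝ) :
    Integrable (fun ω => (∑ n ∈ A, c n * incr W v n ω) ^ 2) μ ∧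
      ∫ ω, (∑ n ∈ A, c n * incr W v n ω) ^ 2 ∂μ =
        ((∫ ω, pathProduct W v ω ^ 2 ∂μ) * ∫ x, (x - 1) ^ 2 ∂ν) * ∑ n ∈ A, c n ^ 2 := by
  have hL2 : ∀ n, MemLp (incr W v n) 2 μ := fun n =>
    (memLp_two_iff_integrable_sq (measurable_incr hW.1 v n).aestronglyMeasurable).mpr
      (incr_sq_facts hW hpos hmean hm2 v n).1
  have hint : ∀ n m, Integrable (fun ω => incr W v n ω * incr W v m ω) μ := fun n m =>
    (hL2 n).integrable_mul (hL2 m)
  have e : ∀ ω, (∑ n ∈ A, c n * incr W v n ω) ^ 2 =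
      ∑ n ∈ A, ∑ m ∈ A, c n * c m * (incr W v n ω * incr W v m ω) := by
    intro ω
    rw [sq, Finset.sum_mul_sum]
    refine Finset.sum_congr rfl fun n _ => Finset.sum_congr rfl fun m _ => ?_
    ring
  have hint2 : ∀ n, Integrable (fun ω => ∑ m ∈ A, c n * c m * (incr W v n ω * incr W v m ω)) μ :=
    fun n => integrable_finsetSum A fun m _ => (hint n m).const_mul _
  refine ⟨?_, ?_⟩
  · simp_rw [e]
    exact integrable_finsetSum A fun n _ => hint2 n
  · simp_rw [e]
    rw [integral_finsetSum A fun n _ => hint2 n, Finset.mul_sum]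
    refine Finset.sum_congr rfl fun n hn => ?_
    rw [integral_finsetSum A fun m _ => (hint n m).const_mul _]
    simp_rw [integral_const_mul]
    rw [Finset.sum_eq_single n]
    · have h1 : ∫ ω, incr W v n ω * incr W v n ω ∂μ = ∫ ω, incr W v n ω ^ 2 ∂μ := by
        simp_rw [sq]
      rw [h1, (incr_sq_facts hW hpos hmean hm2 v n).2]
      ring
    · intro m _ hmn
      rw [integral_incr_mul_incr hW hmean v (Ne.symm hmn), mul_zero]
    · intro h
      exact absurd hn h

end Main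

/-- Under the hypotheses of S0169 there are elements `pp v` of the product span (the `L¹` classes of
the path products) with `‖pp v‖ = 1`, such that for every vertex `v` the increments
`pp (n :: v) - pp v` (`n : ℕ`) all have the same norm `κ > 0` and satisfy an upper `ℓ₂`
estimate. -/
theorem exists_pp (ν : Measure ℝ) [IsProbabilityMeasure ν] (hpos : ν (Set.Ioi 0) = 1)
    (hnc : ∀ c : ℝ, ν ≠ Measure.dirac c) (hmean : ∫ x, x ∂ν = 1)
    (hm2 : Integrable (fun x : ℝ => x ^ 2) ν)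
    (Ω : Type) [MeasurableSpace Ω] (μ : Measure Ω) [IsProbabilityMeasure μ]
    (W : List ℕ → Ω → ℝ) (hW : IsRealization ν μ W) :
    ∃ (pp : List ℕ → ↥(productSpan μ W)) (κ : ℝ), 0 < κ ∧ (∀ v, ‖pp v‖ = 1) ∧
      (∀ (v : List ℕ) (n : ℕ), ‖pp (n :: v) - pp v‖ = κ) ∧
      ∀ v : List ℕ, ∃ C : ℝ, UpperTwo (fun n => pp (n :: v) - pp v) C := by
  classical
  have hI : ∀ v, MemLp (pathProduct W v) 1 μ := fun v =>
    memLp_one_iff_integrable.mpr (pathProduct_facts hW hpos hmean hm2 v).1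
  have hmem : ∀ v, (hI v).toLp (pathProduct W v) ∈ productSpan μ W := fun v =>
    Submodule.le_topologicalClosure _ (Submodule.subset_span ⟨v, MemLp.coeFn_toLp (hI v)⟩)
  have hD : ∀ v n, MemLp (incr W v n) 1 μ := fun v n => by
    rw [incr_eq]
    exact (hI (n :: v)).sub (hI v)
  have hdiff : ∀ v n, (hI (n :: v)).toLp (pathProduct W (n :: v)) - (hI v).toLp (pathProduct W v)
      = (hD v n).toLp (incr W v n) := by
    intro v n
    rw [← MemLp.toLp_sub (hI (n :: v)) (hI v)]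
    exact MemLp.toLp_congr _ _ (Filter.Eventually.of_forall fun ω => by
      rw [incr_eq]; rfl)
  refine ⟨fun v => ⟨(hI v).toLp (pathProduct W v), hmem v⟩, ∫ x, |x - 1| ∂ν,
    kappa_pos hnc hmean, ?_, ?_, ?_⟩
  · intro v
    show ‖(hI v).toLp (pathProduct W v)‖ = 1
    rw [norm_toLp_one]
    obtain ⟨-, h1, hp, -⟩ := pathProduct_facts hW hpos hmean hm2 v
    rw [← h1]
    exact integral_congr_ae (hp.mono fun ω h => abs_of_pos h)
  · intro v n
    show ‖(hI (n :: v)).toLp (pathProduct W (n :: v)) - (hI v).toLp (pathProduct W v)‖ = _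
    rw [hdiff, norm_toLp_one]
    exact integral_abs_incr hW hpos hmean hm2 v n
  · intro v
    refine ⟨Real.sqrt ((∫ ω, pathProduct W v ω ^ 2 ∂μ) * ∫ x, (x - 1) ^ 2 ∂ν), ?_⟩
    intro A c
    have hcoe : ‖∑ n ∈ A, c n • ((⟨(hI (n :: v)).toLp (pathProduct W (n :: v)), hmem (n :: v)⟩ :
          ↥(productSpan μ W)) - ⟨(hI v).toLp (pathProduct W v), hmem v⟩)‖
        = ‖∑ n ∈ A, c n • (hD v n).toLp (incr W v n)‖ := by
      rw [Submodule.coe_norm]
      congr 1
      rw [Submodule.coe_sum]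
      refine Finset.sum_congr rfl fun n _ => ?_
      rw [Submodule.coe_smul, AddSubgroupClass.coe_sub, hdiff]
    show ‖∑ n ∈ A, c n • ((⟨(hI (n :: v)).toLp (pathProduct W (n :: v)), hmem (n :: v)⟩ :
          ↥(productSpan μ W)) - ⟨(hI v).toLp (pathProduct W v), hmem v⟩)‖ ≤ _
    rw [hcoe, L1.norm_eq_integral_norm]
    have hae : ∀ᵐ ω ∂μ, ∀ n, (hD v n).toLp (incr W v n) ω = incr W v n ω :=
      ae_all_iff.mpr fun n => MemLp.coeFn_toLp (hD v n)
    have h1 : ∫ ω, ‖(∑ n ∈ A, c n • (hD v n).toLp (incr W v n) : Lp ℝ 1 μ) ω‖ ∂μ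
        = ∫ ω, |∑ n ∈ A, c n * incr W v n ω| ∂μ := by
      refine integral_congr_ae ?_
      filter_upwards [coeFn_sum_smul_ae A c (fun n => (hD v n).toLp (incr W v n)), hae] with ω h2 h3
      rw [h2, Real.norm_eq_abs]
      congr 1
      exact Finset.sum_congr rfl fun n _ => by rw [h3 n]
    rw [h1]
    obtain ⟨hsqi, hsq⟩ := integral_sq_sum_incr hW hpos hmean hm2 v A c
    have hmeas : AEStronglyMeasurable (fun ω => ∑ n ∈ A, c n * incr W v n ω) μ :=
      (Finset.measurable_sum A fun n _ => (measurable_incr hW.1 v n).const_mul (c n)).aestronglyMeasurable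
    refine (integral_abs_le_sqrt_integral_sq hmeas hsqi).trans ?_
    rw [hsq, Real.sqrt_mul' _ (Finset.sum_nonneg fun n _ => sq_nonneg (c n))]

end Crest.Agent.S0169Lib
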