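import Crest.Agent.AsyLib.Basic
import Crest.Prelude.Def_TreeProducts

/-!
Path products of independent multipliers (S0169), part 1: measurability of the path products with
respect to the σ-algebra generated by the multipliers on the root path, the resulting independence
statements, and the first and second moments of the path products and of their sibling increments.
-/

set_option autoImplicit false
set_option linter.unusedSectionVars false
set_option warn.classDefReducibility false

namespace Crest.Agent.S0169Lib

open MeasureTheory ProbabilityTheory
open Crest.AnalysisR Crest.AnalysisR.TreeProduct Crest.Agent.AsyLib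

section Indep

variable {Ω : Type} [mΩ : MeasurableSpace Ω] {μ : Measure Ω} {W : List ℕ → Ω → ℝ}

/-- The σ-algebra generated by the multipliers `W u`, `u ∈ S`. -/
def sig (W : List ℕ → Ω → ℝ) (S : Set (List ℕ)) : MeasurableSpace Ω :=
  ⨆ u ∈ S, MeasurableSpace.comap (W u) inferInstance

theorem sig_mono {S T : Set (List ℕ)} (h : S ⊆ T) : sig W S ≤ sig W T :=
  biSup_mono h

theorem comap_le_sig {S : Set (List ℕ)} {u : List ℕ} (hu : u ∈ S) :
    MeasurableSpace.comap (W u) inferInstance ≤ sig W S :=
  le_biSup (fun u => MeasurableSpace.comap (W u) inferInstance) hu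

theorem sig_le (hW : ∀ v, Measurable (W v)) (S : Set (List ℕ)) : sig W S ≤ mΩ :=
  iSup₂_le fun u _ => (hW u).comap_le

theorem measurable_W_sig {S : Set (List ℕ)} {u : List ℕ} (hu : u ∈ S) :
    Measurable[sig W S] (W u) :=
  (comap_measurable (W u)).mono (comap_le_sig hu) le_rfl

/-- The path product at `v` is measurable with respect to the multipliers on the root path of `v`. -/
theorem measurable_pathProduct_sig (v : List ℕ) :
    Measurable[sig W {u | u <:+ v}] (pathProduct W v) := by
  induction v with
  | nil => exact measurable_const
  | cons a v ih =>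
    have h1 : Measurable[sig W {u | u <:+ a :: v}] (pathProduct W v) :=
      ih.mono (sig_mono fun u hu => hu.trans (List.suffix_cons a v)) le_rfl
    have h2 : Measurable[sig W {u | u <:+ a :: v}] (W (a :: v)) :=
      measurable_W_sig (List.suffix_refl _)
    exact h1.mul h2

theorem measurable_pathProduct (hW : ∀ v, Measurable (W v)) (v : List ℕ) :
    Measurable (pathProduct W v) :=
  (measurable_pathProduct_sig v).mono (sig_le hW _) le_rfl

theorem indep_sig (hW : ∀ v, Measurable (W v)) (hind : iIndepFun W μ) {S T : Set (List ℕ)}
    (hST : Disjoint S T) : Indep (sig W S) (sig W T) μ :=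
  indep_iSup_of_disjoint (fun u => (hW u).comap_le) hind.iIndep hST

theorem indepFun_of_sig (hW : ∀ v, Measurable (W v)) (hind : iIndepFun W μ) {S T : Set (List ℕ)}
    (hST : Disjoint S T) {f g : Ω → ℝ} (hf : Measurable[sig W S] f) (hg : Measurable[sig W T] g) :
    IndepFun f g μ := by
  rw [IndepFun_iff_Indep]
  exact indep_of_indep_of_le_left
    (indep_of_indep_of_le_right (indep_sig hW hind hST) hg.comap_le) hf.comap_le

/-- A function of the multipliers on the root path of `w` is independent of `W u` for every `u` that
is not on that path. -/
theorem indepFun_suffix (hW : ∀ v, Measurable (W v)) (hind : iIndepFun W μ) {w u : List ℕ}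
    (hu : ¬ u <:+ w) {f : Ω → ℝ} (hf : Measurable[sig W {x | x <:+ w}] f) :
    IndepFun f (W u) μ :=
  indepFun_of_sig hW hind (S := {x | x <:+ w}) (T := {u})
    (by rw [Set.disjoint_singleton_right]; exact hu) hf (measurable_W_sig rfl)

theorem not_cons_suffix (n : ℕ) (v : List ℕ) : ¬ (n :: v) <:+ v := by
  intro h
  have := h.length_le
  simp at this

theorem not_cons_suffix_cons {n m : ℕ} (h : n ≠ m) (v : List ℕ) : ¬ (m :: v) <:+ (n :: v) := by
  intro hs
  have := hs.eq_of_length (by simp)
  simp only [List.cons.injEq, and_true] at this
  exact h this.symm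

end Indep

end Crest.Agent.S0169Lib
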